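import Vale.Agent.P159.T1.NC.H664.UProps

/-!
P159, near-critical regime, second version: the affinity of two vortex positions uniformly in the
size of the cells, from the expansion of the current of a cell.
-/

set_option linter.all false

open MeasureTheory Filter Topology
open scoped BigOperators

namespace Vale.Agent.P159.UJ.H172

open Vale.Agent.P159.UJ.H664

/-- the expansion of the current of the cells of side `l` with constant `C` -/
def CellV (b : ℝ) (l : ℕ) (C : ℝ) : Prop := ∀ n : ℕ,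
  ∀ k ∈ cells n, ∀ (α : Ginf) (a : BI l → ℝ) (Y R : ℝ), 0 < Y → (l : ℝ) * Y ≤ 1 → 0 < R →
    (∀ e, ((a e : ℝ) : T) = α (cor l k + bu e) - α (cor l k + bv e)) → (∀ e, |a e| ≤ Y) →
    (∀ e e', hh e = hh e' → |a e - a e'| ≤ R) →
    ∃ Er : Ginf → ℝ, Continuous Er ∧ (∀ x, 0 ≤ Er x) ∧
      Ev b (l * n) 0 Er ≤ C * ((l : ℝ) ^ 2 * R + (l : ℝ) ^ 3 * Y ^ 2) ∧
      ∀ h : BI l → ℝ, (h = hh ∨ h = vv) → ∀ x,
        |jc b l (cor l k) h (x + α) - jc b l (cor l k) h x -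
            stiff l b * ∑ e, 1 / 2 * h e * a e| ≤
          2 * Y * (((l : ℝ) ^ 2 * stiff l b - qc b l (cor l k) hh x) +
            ((l : ℝ) ^ 2 * stiff l b - qc b l (cor l k) vv x)) + Er x

theorem tail_u {b : ℝ} (hb : 0 < b) {l : ℕ} (hl : 1 ≤ l) {C : ℝ} (hC : 0 ≤ C)
    (hcell : CellV b l C) :
    ∀ (n : ℕ), 1 ≤ n → ∀ (S : Finset (ℤ × ℤ)), S ⊆ cells n → ∀ (α : Ginf)
      (a : ℤ × ℤ → BI l → ℝ) (Y R : ℝ), 0 < Y → (l : ℝ) * Y ≤ 1 → 0 < R →
      (∀ k ∈ cells n \ S, ∀ e, ((a k e : ℝ) : T) = α (cor l k + bu e) - α (cor l k + bv e)) →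
      (∀ k ∈ cells n \ S, ∀ e, |a k e| ≤ Y) →
      (∀ k ∈ cells n \ S, ∀ e e', hh e = hh e' → |a k e - a k e'| ≤ R) →
      ∀ (h : BI l → ℝ), (h = hh ∨ h = vv) → ∀ d r : ℝ, 0 < d → 0 ≤ r →
      Ev b (l * n) 0 (fun x => psi d (∑ k ∈ cells n \ S, jc b l (cor l k) h (x + α) -
        stiff l b * ∑ k ∈ cells n \ S, ∑ e, 1 / 2 * h e * a k e)) ≤
      36 / d ^ 2 * (((l * n : ℕ) : ℝ) ^ 2 * (stiff l b - stiff (l * n) b)) +
      2 * (Real.exp (-(r * d / 6)) * Real.exp (r ^ 2 / 2 * (S.card * (b * (l : ℝ) ^ 2)))) +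
      6 / d * (4 * Y * (((l * n : ℕ) : ℝ) ^ 2 * (stiff l b - stiff (l * n) b)) +
        (n : ℝ) ^ 2 * (C * ((l : ℝ) ^ 2 * R + (l : ℝ) ^ 3 * Y ^ 2))) := by
  intro n hn S hS α a Y R hY hYY hR ha haY haR h hh' d r hd hr
  obtain ⟨δ, hδ⟩ : ∃ δ, δ = ((l * n : ℕ) : ℝ) ^ 2 * (stiff l b - stiff (l * n) b) := ⟨_, rfl⟩
  rw [← hδ]
  obtain ⟨ε, hε⟩ : ∃ ε, ε = C * ((l : ℝ) ^ 2 * R + (l : ℝ) ^ 3 * Y ^ 2) := ⟨_, rfl⟩
  rw [← hε]
  have hε0 : 0 ≤ ε := by rw [hε]; positivity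
  set j : ℤ × ℤ → Ginf → ℝ := fun k => jc b l (cor l k) h with hj
  have cj : ∀ k, Continuous (j k) := fun k => jc_cont b l (cor l k) h
  set Dh : ℤ × ℤ → Ginf → ℝ := fun k x => (l : ℝ) ^ 2 * stiff l b - qc b l (cor l k) hh x
    with hDh
  set Dv : ℤ × ℤ → Ginf → ℝ := fun k x => (l : ℝ) ^ 2 * stiff l b - qc b l (cor l k) vv x
    with hDv
  have cDh : ∀ k, Continuous (Dh k) := fun k => continuous_const.sub (qc_cont b l _ _)
  have cDv : ∀ k, Continuous (Dv k) := fun k => continuous_const.sub (qc_cont b l _ _)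
  have pDh : ∀ k x, 0 ≤ Dh k x := fun k x => by
    have := (qc_le hb.le hl (cor l k) x).1
    simp only [hDh]; linarith
  have pDv : ∀ k x, 0 ≤ Dv k x := fun k x => by
    have := (qc_le hb.le hl (cor l k) x).2
    simp only [hDv]; linarith
  -- second moment of the total current
  have v1 := var_h hb.le hl hn
  have v2 := var_v hb.le hl hn
  rw [← hδ] at v1 v2
  have n1 : 0 ≤ ∑ k ∈ cells n, Ev b (l * n) 0 (Dh k) :=
    Finset.sum_nonneg fun k _ => Ev_nonneg (pDh k)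
  have n2 : 0 ≤ ∑ k ∈ cells n, Ev b (l * n) 0 (Dv k) :=
    Finset.sum_nonneg fun k _ => Ev_nonneg (pDv k)
  have n3 : 0 ≤ Ev b (l * n) 0 (fun θ => (∑ k ∈ cells n, jc b l (cor l k) hh θ) ^ 2) :=
    Ev_nonneg fun _ => sq_nonneg _
  have n4 : 0 ≤ Ev b (l * n) 0 (fun θ => (∑ k ∈ cells n, jc b l (cor l k) vv θ) ^ 2) :=
    Ev_nonneg fun _ => sq_nonneg _
  have w1 : ∑ k ∈ cells n, Ev b (l * n) 0 (Dh k) ≤ δ := by
    have : ∑ k ∈ cells n, Ev b (l * n) 0 (Dh k) = ∑ k ∈ cells n, Ev b (l * n) 0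
      (fun θ => (l : ℝ) ^ 2 * stiff l b - qc b l (cor l k) hh θ) := rfl
    rw [this]; linarith
  have w2 : ∑ k ∈ cells n, Ev b (l * n) 0 (Dv k) ≤ δ := by
    have : ∑ k ∈ cells n, Ev b (l * n) 0 (Dv k) = ∑ k ∈ cells n, Ev b (l * n) 0
      (fun θ => (l : ℝ) ^ 2 * stiff l b - qc b l (cor l k) vv θ) := rfl
    rw [this]; linarith
  have w3 : Ev b (l * n) 0 (fun x => (∑ k ∈ cells n, j k x) ^ 2) ≤ δ := by
    rcases hh' with rfl | rfl
    · have : Ev b (l * n) 0 (fun x => (∑ k ∈ cells n, j k x) ^ 2) =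
        Ev b (l * n) 0 (fun θ => (∑ k ∈ cells n, jc b l (cor l k) hh θ) ^ 2) := rfl
      rw [this]
      have e1 : ∑ k ∈ cells n, Ev b (l * n) 0 (Dh k) = ∑ k ∈ cells n, Ev b (l * n) 0
        (fun θ => (l : ℝ) ^ 2 * stiff l b - qc b l (cor l k) hh θ) := rfl
      rw [e1] at n1
      linarith
    · have : Ev b (l * n) 0 (fun x => (∑ k ∈ cells n, j k x) ^ 2) =
        Ev b (l * n) 0 (fun θ => (∑ k ∈ cells n, jc b l (cor l k) vv θ) ^ 2) := rfl
      rw [this]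
      have e1 : ∑ k ∈ cells n, Ev b (l * n) 0 (Dv k) = ∑ k ∈ cells n, Ev b (l * n) 0
        (fun θ => (l : ℝ) ^ 2 * stiff l b - qc b l (cor l k) vv θ) := rfl
      rw [e1] at n2
      linarith
  -- cell expansion
  have hE : ∀ k : ℤ × ℤ, ∃ E : Ginf → ℝ, Continuous E ∧ (∀ x, 0 ≤ E x) ∧
      Ev b (l * n) 0 E ≤ ε ∧ (k ∈ cells n \ S → ∀ x, |j k (x + α) - j k x -
        stiff l b * ∑ e, 1 / 2 * h e * a k e| ≤ 2 * Y * (Dh k x + Dv k x) + E x) := by
    intro k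
    by_cases hk : k ∈ cells n \ S
    · obtain ⟨E, h1, h2, h3, h4⟩ := hcell n k (Finset.mem_sdiff.1 hk).1 α (a k) Y R hY hYY hR
        (ha k hk) (haY k hk) (haR k hk)
      rw [← hε] at h3
      exact ⟨E, h1, h2, h3, fun _ x => h4 h hh' x⟩
    · refine ⟨fun _ => 0, continuous_const, fun _ => le_rfl, ?_, fun hk' => absurd hk' hk⟩
      rw [Ev_zero_const]
      exact hε0
  choose Er cEr pEr mEr bEr using hE
  -- the third term
  set E3 : Ginf → ℝ := fun x => ∑ k ∈ cells n, (2 * Y * (Dh k x + Dv k x) + Er k x)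
    with hE3
  have cE3 : Continuous E3 := continuous_finsetSum _ fun k _ =>
    (continuous_const.mul ((cDh k).add (cDv k))).add (cEr k)
  have hsplit : ∀ x, ∑ k ∈ cells n \ S, j k (x + α) -
      stiff l b * ∑ k ∈ cells n \ S, ∑ e, 1 / 2 * h e * a k e =
      ∑ k ∈ cells n, j k x + (-∑ k ∈ S, j k x) +
        ∑ k ∈ cells n \ S, (j k (x + α) - j k x - stiff l b * ∑ e, 1 / 2 * h e * a k e) := by
    intro x
    rw [Finset.sum_sub_distrib, Finset.sum_sub_distrib, ← Finset.mul_sum]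
    have := Finset.sum_sdiff (f := fun k => j k x) hS
    linarith only [this]
  have h3 : ∀ x, |∑ k ∈ cells n \ S, (j k (x + α) - j k x -
      stiff l b * ∑ e, 1 / 2 * h e * a k e)| ≤ E3 x := by
    intro x
    refine (Finset.abs_sum_le_sum_abs _ _).trans ?_
    refine (Finset.sum_le_sum fun k hk => bEr k hk x).trans ?_
    simp only [hE3]
    refine Finset.sum_le_sum_of_subset_of_nonneg Finset.sdiff_subset fun k _ _ => ?_
    have := pDh k x
    have := pDv k x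
    have := pEr k x
    positivity
  have hpt : ∀ x, psi d (∑ k ∈ cells n \ S, jc b l (cor l k) h (x + α) -
        stiff l b * ∑ k ∈ cells n \ S, ∑ e, 1 / 2 * h e * a k e) ≤
      (36 / d ^ 2) * (∑ k ∈ cells n, j k x) ^ 2 +
      (Real.exp (-(r * d / 6)) * Real.exp (-r * ∑ k ∈ S, j k x) +
      Real.exp (-(r * d / 6)) * Real.exp (r * ∑ k ∈ S, j k x)) + (6 / d) * E3 x := by
    intro x
    have := psi_bound (d := d) (X1 := ∑ k ∈ cells n, j k x) (X2 := -∑ k ∈ S, j k x)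
      (X3 := ∑ k ∈ cells n \ S, (j k (x + α) - j k x - stiff l b * ∑ e, 1 / 2 * h e * a k e))
      (r := r) hd hr
    rw [← hsplit] at this
    refine this.trans ?_
    have e1 : r * -∑ k ∈ S, j k x = -r * ∑ k ∈ S, j k x := by ring
    have e2 : -r * -∑ k ∈ S, j k x = r * ∑ k ∈ S, j k x := by ring
    rw [e1, e2]
    have h6 : 0 ≤ 6 / d := by positivity
    have := mul_le_mul_of_nonneg_left (h3 x) h6
    linarith only [this]
  have cA : Continuous (fun x : Ginf => (36 / d ^ 2) * (∑ k ∈ cells n, j k x) ^ 2) :=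
    continuous_const.mul ((continuous_finsetSum _ fun k _ => cj k).pow 2)
  have cS : Continuous (fun x : Ginf => ∑ k ∈ S, j k x) := continuous_finsetSum _ fun k _ => cj k
  have cB1 : Continuous (fun x : Ginf => Real.exp (-(r * d / 6)) *
      Real.exp (-r * ∑ k ∈ S, j k x)) :=
    continuous_const.mul (Real.continuous_exp.comp (continuous_const.mul cS))
  have cB2 : Continuous (fun x : Ginf => Real.exp (-(r * d / 6)) *
      Real.exp (r * ∑ k ∈ S, j k x)) :=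
    continuous_const.mul (Real.continuous_exp.comp (continuous_const.mul cS))
  have cB : Continuous (fun x : Ginf => Real.exp (-(r * d / 6)) *
      Real.exp (-r * ∑ k ∈ S, j k x) + Real.exp (-(r * d / 6)) *
      Real.exp (r * ∑ k ∈ S, j k x)) := cB1.add cB2
  have cC : Continuous (fun x : Ginf => (6 / d) * E3 x) := continuous_const.mul cE3
  have cAB : Continuous (fun x : Ginf => (36 / d ^ 2) * (∑ k ∈ cells n, j k x) ^ 2 +
      (Real.exp (-(r * d / 6)) * Real.exp (-r * ∑ k ∈ S, j k x) +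
      Real.exp (-(r * d / 6)) * Real.exp (r * ∑ k ∈ S, j k x))) := cA.add cB
  have cL : Continuous (fun x : Ginf => psi d (∑ k ∈ cells n \ S, jc b l (cor l k) h (x + α) -
        stiff l b * ∑ k ∈ cells n \ S, ∑ e, 1 / 2 * h e * a k e)) := by
    refine (psi_cont d).comp (Continuous.sub ?_ continuous_const)
    exact continuous_finsetSum _ fun k _ =>
      (jc_cont b l (cor l k) h).comp (continuous_id.add continuous_const)
  have cABC : Continuous (fun x : Ginf => (36 / d ^ 2) * (∑ k ∈ cells n, j k x) ^ 2 +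
      (Real.exp (-(r * d / 6)) * Real.exp (-r * ∑ k ∈ S, j k x) +
      Real.exp (-(r * d / 6)) * Real.exp (r * ∑ k ∈ S, j k x)) + (6 / d) * E3 x) := cAB.add cC
  refine (Ev_mono cL cABC hpt).trans ?_
  rw [Ev_add cAB cC, Ev_add cA cB, Ev_add cB1 cB2, Ev_const_mul, Ev_const_mul, Ev_const_mul,
    Ev_const_mul]
  -- exponential moments
  have hsum : ∑ _k ∈ S, ∑ e : BI l, b / 2 * h e ^ 2 = S.card * (b * (l : ℝ) ^ 2) := by
    have : ∑ e : BI l, b / 2 * h e ^ 2 = b * (l : ℝ) ^ 2 := by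
      rcases hh' with rfl | rfl
      · exact sum_hh_sq b l
      · exact sum_vv_sq b l
    rw [this, Finset.sum_const, nsmul_eq_mul]
  have x1 := exp_bound hb.le hl S hS h (-r)
  have x2 := exp_bound hb.le hl S hS h r
  rw [hsum] at x1 x2
  have e0 : (-r) ^ 2 = r ^ 2 := by ring
  rw [e0] at x1
  have hE3b : Ev b (l * n) 0 E3 ≤ 4 * Y * δ + (n : ℝ) ^ 2 * ε := by
    have f1 : Ev b (l * n) 0 E3 = ∑ k ∈ cells n, Ev b (l * n) 0 (fun x =>
        2 * Y * (Dh k x + Dv k x) + Er k x) :=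
      Ev_sum _ _ fun k _ => (continuous_const.mul ((cDh k).add (cDv k))).add (cEr k)
    have f2 : ∀ k, Ev b (l * n) 0 (fun x => 2 * Y * (Dh k x + Dv k x) + Er k x) ≤
        2 * Y * (Ev b (l * n) 0 (Dh k) + Ev b (l * n) 0 (Dv k)) + ε := by
      intro k
      have c1 : Continuous (fun x => Dh k x + Dv k x) := (cDh k).add (cDv k)
      have c2 : Continuous (fun x => 2 * Y * (Dh k x + Dv k x)) := continuous_const.mul c1
      rw [Ev_add c2 (cEr k), Ev_const_mul, Ev_add (cDh k) (cDv k)]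
      exact add_le_add le_rfl (mEr k)
    rw [f1]
    refine (Finset.sum_le_sum fun k _ => f2 k).trans ?_
    rw [Finset.sum_add_distrib, ← Finset.mul_sum, Finset.sum_add_distrib, Finset.sum_const,
      nsmul_eq_mul]
    have hcard : ((cells n).card : ℝ) = (n : ℝ) ^ 2 := by
      unfold cells
      rw [Finset.card_product, Int.card_Ico]
      simp
      ring
    rw [hcard]
    have := mul_le_mul_of_nonneg_left (add_le_add w1 w2) (by positivity : 0 ≤ 2 * Y)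
    linarith only [this]
  have g1 := mul_le_mul_of_nonneg_left w3 (by positivity : 0 ≤ 36 / d ^ 2)
  have g2 := mul_le_mul_of_nonneg_left x1 (Real.exp_pos (-(r * d / 6))).le
  have g3 := mul_le_mul_of_nonneg_left x2 (Real.exp_pos (-(r * d / 6))).le
  have g4 := mul_le_mul_of_nonneg_left hE3b (by positivity : 0 ≤ 6 / d)
  linarith

theorem mean_diff_u {t t0 K s ν C0 A mp mq : ℝ} (ht0 : 0 < t0) (ht : t0 ≤ t) (hK : 0 ≤ K)
    (hs : 0 < s) (hν : 1 ≤ ν) (hKC : C0 ≤ Real.pi * K) (hm : mp - mq = t * A)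
    (hA : 2 * Real.pi * K * s * ν - C0 * s ≤ |A|) :
    2 * (1 * s * (2 * Real.pi * t0 * K * ν) / 4) ≤ |mp - mq| := by
  have hpi := Real.pi_pos
  have ht1 : 0 ≤ t := ht0.le.trans ht
  rw [hm, abs_mul, abs_of_nonneg ht1]
  have h1 : Real.pi * K * s * ν ≤ |A| := by
    refine le_trans ?_ hA
    have h2 : C0 * s ≤ Real.pi * K * s * ν := by
      calc C0 * s ≤ Real.pi * K * s := mul_le_mul_of_nonneg_right hKC hs.le
        _ ≤ Real.pi * K * s * ν := le_mul_of_one_le_right (by positivity) hν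
    linarith
  calc 2 * (1 * s * (2 * Real.pi * t0 * K * ν) / 4) = t0 * (Real.pi * K * s * ν) := by ring
    _ ≤ t * |A| := mul_le_mul ht h1 (by positivity) ht1

/-- the third term -/
theorem third_u {l m N C C0 ρ s n : ℝ} (hl : 1 ≤ l) (hm : 0 < m) (hC : 0 ≤ C) (hC0 : 0 ≤ C0)
    (hρ : 1 ≤ ρ) (hs : s = l * m) (hn : n = m * N) :
    6 / (1 * s * ρ / 4) * (n ^ 2 * (C * (l ^ 2 * (C0 * l / s ^ 2) + l ^ 3 * (C0 / s) ^ 2))) ≤
      24 * C * (C0 + C0 ^ 2) * N ^ 2 / m := by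
  have hl0 : 0 < l := by linarith
  have hρ0 : 0 < ρ := by linarith
  have e1 : 6 / (1 * s * ρ / 4) * (n ^ 2 * (C * (l ^ 2 * (C0 * l / s ^ 2) +
      l ^ 3 * (C0 / s) ^ 2))) = 24 * C * (C0 + C0 ^ 2) * N ^ 2 / m / ρ := by
    rw [hs, hn]
    field_simp
    ring
  rw [e1]
  exact div_le_self (by positivity) hρ

theorem one_u {b : ℝ} (hb : 0 < b) {C0 s1 : ℝ} (hC0 : 1 ≤ C0)
    (hinc : ∀ l m K M i j : ℕ, 1 ≤ l → 1 ≤ K → i < M →
    j < M → s1 ≤ ((l * m : ℕ) : ℝ) → ∀ k ∈ outer m K M i j, ∀ e : BI l,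
      |ainc l m K M i j k e| ≤ C0 / ((l * m : ℕ) : ℝ) ∧
      ∀ e' : BI l, hh e = hh e' → |ainc l m K M i j k e - ainc l m K M i j k e'| ≤
        C0 * l / ((l * m : ℕ) : ℝ) ^ 2) {l : ℕ} (hl : 1 ≤ l)
    {C : ℝ} (hC : 0 ≤ C) (hcell : CellV b l C) :
    ∀ K M m : ℕ, 1 ≤ K → 1 ≤ m → C0 ≤ (m : ℝ) →
      max s1 4 ≤ ((l * m : ℕ) : ℝ) → ∀ δ : ℝ, stiff l b - stiff (l * (m * NN K M)) b ≤ δ →
      ∀ S ⊆ cells (m * NN K M), ((S.card : ℕ) : ℝ) ≤ 2 * (m : ℝ) ^ 2 →
      ∀ i j : ℕ, i < M → j < M → core m K M i j ⊆ S → ∀ (h : BI l → ℝ), (h = hh ∨ h = vv) →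
      ∀ ρ : ℝ, 1 ≤ ρ →
      Real.sqrt (Ev b (l * (m * NN K M)) 0 (fun x => psi (1 * ((l * m : ℕ) : ℝ) * ρ / 4)
        (TT b l h (cells (m * NN K M) \ S) (x + alp l m K M i j) -
          stiff l b * ∑ k ∈ cells (m * NN K M) \ S, ∑ e, 1 / 2 * h e *
            ainc l m K M i j k e))) ≤
      Real.sqrt ((576 + 96 * C0) * (NN K M : ℝ) ^ 2 * δ +
        24 * C * (C0 + C0 ^ 2) * (NN K M : ℝ) ^ 2 / m) +
      Real.sqrt (2 * Real.exp b) * Real.exp (-(1 * ρ) / 48) := by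
  have htail := tail_u hb hl hC hcell
  intro K M m hK hm1 hC0m hSl δ hδ1 S hSsub hcard i j hi hj hcS h hh' ρ hν1
  obtain ⟨s, hs⟩ : ∃ s : ℝ, s = ((l * m : ℕ) : ℝ) := ⟨_, rfl⟩
  rw [← hs] at hSl ⊢
  have hs1' : s1 ≤ s := (le_max_left _ _).trans hSl
  have hs4 : 4 ≤ s := (le_max_right _ _).trans hSl
  have hs0 : 0 < s := by linarith only [hs4]
  have hs4n : 4 ≤ l * m := by
    rw [hs] at hs4
    exact_mod_cast hs4
  have hC00 : 0 < C0 := by linarith only [hC0]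
  have hNN : 1 ≤ NN K M := by unfold NN; omega
  have hlR : (1 : ℝ) ≤ l := by exact_mod_cast hl
  have hl0 : (0 : ℝ) < l := by linarith only [hlR]
  have hm0 : (0 : ℝ) < m := by exact_mod_cast hm1
  have hd : 0 < 1 * s * ρ / 4 := by positivity
  have hslm : s = (l : ℝ) * m := by rw [hs]; push_cast; ring
  have hYY : (l : ℝ) * (C0 / s) ≤ 1 := by
    rw [hslm, ← mul_div_assoc, div_le_one (by positivity)]
    exact mul_le_mul_of_nonneg_left hC0m hl0.le
  have hn1 : 1 ≤ m * NN K M := Nat.mul_pos hm1 hNN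
  have hδ0 : 0 ≤ stiff l b - stiff (l * (m * NN K M)) b := by
    linarith only [stiff_mono hb.le hl hn1]
  have hXc : ∀ k ∈ cells (m * NN K M) \ S, k ∉ core m K M i j := fun k hk hk' =>
    (Finset.mem_sdiff.1 hk).2 (hcS hk')
  have hXou : ∀ k ∈ cells (m * NN K M) \ S, k ∈ outer m K M i j := fun k hk =>
    Finset.mem_sdiff.2 ⟨(Finset.mem_sdiff.1 hk).1, hXc k hk⟩
  have h1 := htail (m * NN K M) hn1 S hSsub (alp l m K M i j) (ainc l m K M i j)
    (C0 / s) (C0 * l / s ^ 2) (by positivity) hYY (by positivity)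
    (fun k hk e => ainc_coe hl (by omega) hK hi hj (hXc k hk) e)
    (fun k hk e => by
      have := (hinc l m K M i j hl hK hi hj (by rw [← hs]; exact hs1') k (hXou k hk) e).1
      rw [← hs] at this
      exact this)
    (fun k hk e e' hee => by
      have := (hinc l m K M i j hl hK hi hj (by rw [← hs]; exact hs1') k (hXou k hk) e).2
        e' hee
      rw [← hs] at this
      exact this)
    h hh' (1 * s * ρ / 4) (1 / s) hd (by positivity)
  have h2 := tail_numeric (s := s) (N := (NN K M : ℝ)) (K := 1) (ν := ρ) (C0 := C0)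
    (C := 0) (l := (l : ℝ)) (m := (m : ℝ)) (n := ((m * NN K M : ℕ) : ℝ))
    (L := ((l * (m * NN K M) : ℕ) : ℝ)) (δ := stiff l b - stiff (l * (m * NN K M)) b)
    (b := b) (card := (S.card : ℝ)) hs0 le_rfl hν1 hC00.le le_rfl hlR
    (by positivity) (by rw [hs]; push_cast; ring) (by push_cast; ring) (by push_cast; ring)
    hδ0 hb.le hcard
  have h2' := third_u (l := (l : ℝ)) (m := (m : ℝ)) (N := (NN K M : ℝ)) (C := C) (C0 := C0)
    (ρ := ρ) (s := s) (n := ((m * NN K M : ℕ) : ℝ)) hlR hm0 hC hC00.le hν1 hslm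
    (by push_cast; ring)
  have h4 : Ev b (l * (m * NN K M)) 0 (fun x => psi (1 * s * ρ / 4)
      (TT b l h (cells (m * NN K M) \ S) (x + alp l m K M i j) -
        stiff l b * ∑ k ∈ cells (m * NN K M) \ S, ∑ e, 1 / 2 * h e *
          ainc l m K M i j k e)) ≤
      ((576 + 96 * C0) * (NN K M : ℝ) ^ 2 * δ +
      24 * C * (C0 + C0 ^ 2) * (NN K M : ℝ) ^ 2 / m) +
      2 * Real.exp b * Real.exp (-(1 * ρ) / 24) := by
    refine h1.trans ?_
    have : (576 + 96 * C0) * (NN K M : ℝ) ^ 2 * (stiff l b - stiff (l * (m * NN K M)) b) ≤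
        (576 + 96 * C0) * (NN K M : ℝ) ^ 2 * δ :=
      mul_le_mul_of_nonneg_left hδ1 (by positivity)
    simp only [zero_mul, mul_zero, zero_div, add_zero] at h2
    rw [mul_add (6 / (1 * s * ρ / 4))]
    linarith only [this, h2, h2']
  refine (Real.sqrt_le_sqrt h4).trans ?_
  have hδ' : 0 ≤ δ := hδ0.trans hδ1
  refine (sqrt_add_le' (by positivity) (by positivity)).trans ?_
  refine add_le_add le_rfl (le_of_eq ?_)
  rw [Real.sqrt_mul (by positivity)]
  congr 1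
  have e1 : Real.exp (-(1 * ρ) / 24) = Real.exp (-(1 * ρ) / 48) ^ 2 := by
    rw [← Real.exp_nat_mul]
    congr 1
    push_cast
    ring
  rw [e1, Real.sqrt_sq (Real.exp_pos _).le]

/-- The affinity of two vortex positions, uniformly in the size of the cells. -/
theorem affU_of : ∀ B t0 : ℝ, 0 < B → 0 < t0 → CellU B → AffU B t0 := by
  intro B t0 hB ht0 hU
  obtain ⟨C, hC, hU⟩ := hU
  obtain ⟨C1, s1, hC1, hs1, hinc⟩ := geo_inc
  obtain ⟨C2, s2, hC2, hs2, hrh⟩ := geo_rows_h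
  obtain ⟨C3, s3, hC3, hs3, hrv⟩ := geo_rows_v
  obtain ⟨C0, hC0⟩ : ∃ C0, C0 = C1 + C2 + C3 := ⟨_, rfl⟩
  have hC01 : 1 ≤ C0 := by linarith
  have hC00 : 0 < C0 := by linarith
  obtain ⟨CU, hCU⟩ : ∃ CU, CU = 4 + C0 + |s1| + |s2| + |s3| + 24 * C * (C0 + C0 ^ 2) :=
    ⟨_, rfl⟩
  have p1 : 0 ≤ |s1| := abs_nonneg _
  have p2 : 0 ≤ |s2| := abs_nonneg _
  have p3 : 0 ≤ |s3| := abs_nonneg _
  have p4 : 0 ≤ 24 * C * (C0 + C0 ^ 2) := by positivity
  refine ⟨C0, CU, hC01, by linarith only [hCU, p1, p2, p3, p4, hC01], ?_⟩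
  intro b hb hbB l hl hst K M m hK hKC hKt hm δ hδ i j i' j' hi hj hi' hj' h ν hν hν1
  have hcell : CellV b l C := fun n => hU b hb hbB l n hl
  have hinc' : ∀ l m K M i j : ℕ, 1 ≤ l → 1 ≤ K → i < M →
    j < M → s1 ≤ ((l * m : ℕ) : ℝ) → ∀ k ∈ outer m K M i j, ∀ e : BI l,
      |ainc l m K M i j k e| ≤ C0 / ((l * m : ℕ) : ℝ) ∧
      ∀ e' : BI l, hh e = hh e' → |ainc l m K M i j k e - ainc l m K M i j k e'| ≤
        C0 * l / ((l * m : ℕ) : ℝ) ^ 2 := by
    intro l m K M i j hl hK hi hj hs k hk e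
    obtain ⟨a1, a2⟩ := hinc l m K M i j hl hK hi hj hs k hk e
    refine ⟨a1.trans (div_le_div_of_nonneg_right (by linarith only [hC2, hC3, hC0]) (by positivity)), ?_⟩
    intro e' hee
    refine (a2 e' hee).trans (div_le_div_of_nonneg_right ?_ (by positivity))
    exact mul_le_mul_of_nonneg_right (by linarith) (by positivity)
  have htail := one_u hb hC01 hinc' hl hC hcell
  have hpi := Real.pi_pos
  have hKR : (1 : ℝ) ≤ K := by exact_mod_cast hK
  have hρ1 : 1 ≤ 2 * Real.pi * t0 * K * ν := by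
    calc (1 : ℝ) ≤ 2 * Real.pi * t0 * K := hKt
      _ ≤ 2 * Real.pi * t0 * K * ν := le_mul_of_one_le_right (by positivity) hν1
  have hlR : (1 : ℝ) ≤ l := by exact_mod_cast hl
  have hmR : (1 : ℝ) ≤ m := by linarith only [hm, hCU, p1, p2, p3, p4, hC01]
  have hm1 : 1 ≤ m := by exact_mod_cast hmR
  have hlm : (m : ℝ) ≤ ((l * m : ℕ) : ℝ) := by
    push_cast
    exact le_mul_of_one_le_left (by linarith only [hmR]) hlR
  have hs1' : s1 ≤ ((l * m : ℕ) : ℝ) := by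
    linarith only [hlm, hm, hCU, le_abs_self s1, p2, p3, p4, hC01]
  have hs2' : s2 ≤ ((l * m : ℕ) : ℝ) := by
    linarith only [hlm, hm, hCU, le_abs_self s2, p1, p3, p4, hC01]
  have hs3' : s3 ≤ ((l * m : ℕ) : ℝ) := by
    linarith only [hlm, hm, hCU, le_abs_self s3, p1, p2, p4, hC01]
  have hSl4 : (4 : ℝ) ≤ ((l * m : ℕ) : ℝ) := by
    linarith only [hlm, hm, hCU, p1, p2, p3, p4, hC01]
  have hC0m : C0 ≤ (m : ℝ) := by linarith only [hm, hCU, p1, p2, p3, p4]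
  have hCUc : 24 * C * (C0 + C0 ^ 2) ≤ CU := by linarith only [hCU, p1, p2, p3, hC01]
  have hSl' : max s1 4 ≤ ((l * m : ℕ) : ℝ) := max_le hs1' hSl4
  have hs0 : (0 : ℝ) < ((l * m : ℕ) : ℝ) := by linarith
  have hs4n : 4 ≤ l * m := by
    have : (4 : ℝ) ≤ ((l * m : ℕ) : ℝ) := hSl4
    exact_mod_cast this
  have hLn : l * m * NN K M = l * (m * NN K M) := Nat.mul_assoc _ _ _
  have hSsub : core m K M i j ∪ core m K M i' j' ⊆ cells (m * NN K M) :=
    Finset.union_subset (core_sub hK hi hj) (core_sub hK hi' hj')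
  have hcard : (((core m K M i j ∪ core m K M i' j').card : ℕ) : ℝ) ≤ 2 * (m : ℝ) ^ 2 := by
    have h1 : (core m K M i j ∪ core m K M i' j').card ≤ m ^ 2 + m ^ 2 := by
      refine (Finset.card_union_le _ _).trans ?_
      rw [core_card, core_card]
    have h2 : (((core m K M i j ∪ core m K M i' j').card : ℕ) : ℝ) ≤
      ((m ^ 2 + m ^ 2 : ℕ) : ℝ) := by exact_mod_cast h1
    refine h2.trans (le_of_eq ?_)
    push_cast
    ring
  have hh'' : h = hh ∨ h = vv := by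
    rcases hν with ⟨h1, _⟩ | ⟨h1, _⟩
    · exact Or.inl h1
    · exact Or.inr h1
  have hrow : 2 * Real.pi * K * ((l * m : ℕ) : ℝ) * ν - C0 * ((l * m : ℕ) : ℝ) ≤
      |∑ k ∈ cells (m * NN K M) \ (core m K M i j ∪ core m K M i' j'), ∑ e, 1 / 2 * h e *
      (ainc l m K M i j k e - ainc l m K M i' j' k e)| := by
    rcases hν with ⟨hh', hν'⟩ | ⟨hh', hν'⟩
    · rw [hh', hν']
      refine le_trans ?_ (hrh l m K M i j i' j' hl hK hi hj hi' hj' hs2')
      have : C2 * ((l * m : ℕ) : ℝ) ≤ C0 * ((l * m : ℕ) : ℝ) :=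
        mul_le_mul_of_nonneg_right (by linarith only [hC1, hC3, hC0]) hs0.le
      linarith only [this]
    · rw [hh', hν']
      refine le_trans ?_ (hrv l m K M i j i' j' hl hK hi hj hi' hj' hs3')
      have : C3 * ((l * m : ℕ) : ℝ) ≤ C0 * ((l * m : ℕ) : ℝ) :=
        mul_le_mul_of_nonneg_right (by linarith only [hC1, hC2, hC0]) hs0.le
      linarith only [this]
  have hd2 := mean_diff_u ht0 hst (Nat.cast_nonneg K) hs0 hν1 hKC
    (mean_sub (stiff l b) (cells (m * NN K M) \ (core m K M i j ∪ core m K M i' j')) h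
      (ainc l m K M i j) (ainc l m K M i' j')) hrow
  have hd : 0 < 1 * ((l * m : ℕ) : ℝ) * (2 * Real.pi * t0 * K * ν) / 4 := by
    have : (0 : ℝ) < K := by exact_mod_cast hK
    positivity
  refine (affinity (b := b)
    (X := cells (m * NN K M) \ (core m K M i j ∪ core m K M i' j'))
    hl hs4n hK hi hj hi' hj' h hd hd2
    (fun k hk hk' => (Finset.mem_sdiff.1 hk).2 (Finset.mem_union_left _ hk'))
    (fun k hk hk' => (Finset.mem_sdiff.1 hk).2 (Finset.mem_union_right _ hk'))).trans ?_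
  rw [hLn] at hδ
  have a1 := htail K M m hK hm1 hC0m hSl' δ hδ _ hSsub hcard i j hi hj Finset.subset_union_left
    h hh'' _ hρ1
  have a2 := htail K M m hK hm1 hC0m hSl' δ hδ _ hSsub hcard i' j' hi' hj'
    Finset.subset_union_right h hh'' _ hρ1
  rw [← hLn] at a1 a2
  have a3 : Real.sqrt ((576 + 96 * C0) * (NN K M : ℝ) ^ 2 * δ +
        24 * C * (C0 + C0 ^ 2) * (NN K M : ℝ) ^ 2 / m) ≤
      Real.sqrt ((576 + 96 * C0) * (NN K M : ℝ) ^ 2 * δ + CU * (NN K M : ℝ) ^ 2 / m) := by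
    refine Real.sqrt_le_sqrt (add_le_add le_rfl ?_)
    exact div_le_div_of_nonneg_right (mul_le_mul_of_nonneg_right hCUc (by positivity))
      (by positivity)
  have a4 : Real.exp (-(1 * (2 * Real.pi * t0 * K * ν)) / 48) =
      Real.exp (-(2 * Real.pi * t0 * K * ν) / 48) := by rw [one_mul]
  rw [a4] at a1 a2
  linarith only [a1, a2, a3]

end Vale.Agent.P159.UJ.H172
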