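import Vale.Agent.P159.T1.NC.H172.AffU
import Vale.Agent.P159.T1.NC.H664.CellU

/-!
P159, near-critical regime, second version: the affinity of two vortex positions uniformly in the
size of the cells, unconditional.
-/

namespace Vale.Agent.P159.UJ.H172

open Vale.Agent.P159.UJ.H664

theorem affU (B t0 : ℝ) (hB : 0 < B) (ht0 : 0 < t0) : AffU B t0 :=
  affU_of B t0 hB ht0 (cellU B hB)

end Vale.Agent.P159.UJ.H172
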