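import Vale.Agent.P159.T1.NC.H731.EndQ

/-!
P159, near-critical regime: the correlation length is bounded at small `b`.
-/

namespace Vale.Agent.P159.NC.H172

open Vale.Agent.P159.UJ

theorem small_mass {b : ℝ} (hb : 0 < b) (hb1 : b ≤ 1 / 96) :
    0 < mass b ∧ corrLength b ≤ 4 := by
  have h1 : XY.phi b 1 ≤ 48 * b * (1 : ℕ) * 1 :=
    H731.phi_le_sup hb le_rfl zero_le_one fun u _ _ => XY.C_le_one _ _
  have h2 : XY.phi b 1 ≤ 1 / 2 := by
    refine h1.trans ?_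
    push_cast
    linarith
  have h3 := H731.mass_ge_of_phi hb h2
  have h4 : (1 : ℝ) / 4 ≤ mass b := by
    refine le_trans (le_of_eq ?_) h3
    norm_num
  have h5 : 0 < mass b := lt_of_lt_of_le (by norm_num) h4
  refine ⟨h5, ?_⟩
  rw [corrLength, div_le_iff₀ h5]
  linarith

theorem small_b : ∃ b0 C0 : ℝ, 0 < b0 ∧ 0 < C0 ∧ ∀ b : ℝ, 0 < b → b ≤ b0 →
    corrLength b ≤ C0 :=
  ⟨1 / 96, 4, by norm_num, by norm_num, fun _ hb hb1 => (small_mass hb hb1).2⟩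

theorem small_b' : ∃ b0 C0 : ℝ, 0 < b0 ∧ ∀ b : ℝ, 0 < b → b ≤ b0 →
    0 < mass b ∧ corrLength b ≤ C0 :=
  ⟨1 / 96, 4, by norm_num, fun _ hb hb1 => small_mass hb hb1⟩

end Vale.Agent.P159.NC.H172
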