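import Vale.Agent.P159.T1.NC.H172.AffUAll
import Vale.Agent.P159.T1.NC.H172.Small
import Vale.Agent.P159.T1.NC.H664.GLow
import Vale.Agent.P159.T1.NC.H831.StepU
import Vale.Agent.P159.T1.NC.H831.Rule
import Vale.Agent.P159.T1.NC.H731.EndU
import Vale.Agent.P159.T1.NC.Sharp

/-!
P159, near-critical regime: the sharp form, unconditional.
-/

namespace Vale.Agent.P159.NC.H172

theorem stepU : StepU :=
  UJ.H831.stepU_of (fun B t0 hB ht0 => UJ.H172.affU B t0 hB ht0) fun B hB => UJ.H664.gLowU B hB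

theorem sumRule : SumRule := T1.NC.H831.sumRule_of stepU

theorem sharpNC : SharpNC := by
  obtain ⟨b0, C0, hb0, -, h⟩ := small_b
  exact sharp_of sumRule H731.endU hb0 h

end Vale.Agent.P159.NC.H172
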